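import Mathlib
import Vale.Agent.P287.H932.LineA

set_option autoImplicit false

/-!
# P287: the set of parameters for which the cubic surface has a line is closed and (at smooth
parameters) open
-/

open Filter Topology Metric

namespace P287H468

namespace CD

variable {t : Fin 4 → Fin 4 → Fin 4 → ℂ}

theorem tf_add1 (x x' y z : Fin 4 → ℂ) : tf t (x + x') y z = tf t x y z + tf t x' y z := by
  simp only [tf, Pi.add_apply, mul_add, add_mul, Finset.sum_add_distrib]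

theorem tf_add2 (x y y' z : Fin 4 → ℂ) : tf t x (y + y') z = tf t x y z + tf t x y' z := by
  simp only [tf, Pi.add_apply, mul_add, add_mul, Finset.sum_add_distrib]

theorem tf_add3 (x y z z' : Fin 4 → ℂ) : tf t x y (z + z') = tf t x y z + tf t x y z' := by
  simp only [tf, Pi.add_apply, mul_add, Finset.sum_add_distrib]

theorem tf_smul1 (a : ℂ) (x y z : Fin 4 → ℂ) : tf t (a • x) y z = a * tf t x y z := by
  simp only [tf, Pi.smul_apply, smul_eq_mul, Finset.mul_sum]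
  refine Finset.sum_congr rfl fun i _ => Finset.sum_congr rfl fun j _ =>
    Finset.sum_congr rfl fun k _ => by ring

theorem tf_smul2 (a : ℂ) (x y z : Fin 4 → ℂ) : tf t x (a • y) z = a * tf t x y z := by
  simp only [tf, Pi.smul_apply, smul_eq_mul, Finset.mul_sum]
  refine Finset.sum_congr rfl fun i _ => Finset.sum_congr rfl fun j _ =>
    Finset.sum_congr rfl fun k _ => by ring

theorem tf_smul3 (a : ℂ) (x y z : Fin 4 → ℂ) : tf t x y (a • z) = a * tf t x y z := by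
  simp only [tf, Pi.smul_apply, smul_eq_mul, Finset.mul_sum]
  refine Finset.sum_congr rfl fun i _ => Finset.sum_congr rfl fun j _ =>
    Finset.sum_congr rfl fun k _ => by ring

/-- symmetric coefficients -/
def Sy (t : Fin 4 → Fin 4 → Fin 4 → ℂ) : Prop := ∀ i j k, t i j k = t j i k ∧ t i j k = t i k j

theorem tf_swap12 (hs : Sy t) (x y z : Fin 4 → ℂ) : tf t x y z = tf t y x z := by
  unfold tf
  rw [Finset.sum_comm]
  refine Finset.sum_congr rfl fun i _ => Finset.sum_congr rfl fun j _ =>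
    Finset.sum_congr rfl fun k _ => ?_
  rw [(hs j i k).1]
  ring

theorem tf_swap23 (hs : Sy t) (x y z : Fin 4 → ℂ) : tf t x y z = tf t x z y := by
  unfold tf
  refine Finset.sum_congr rfl fun i _ => ?_
  rw [Finset.sum_comm]
  refine Finset.sum_congr rfl fun j _ =>
    Finset.sum_congr rfl fun k _ => ?_
  rw [(hs i k j).2]
  ring

theorem sy_seg (hs : Sy t) (c : ℂ) : Sy (seg t c) := by
  intro i j k
  have h1 : fer i j k = fer j i k := by
    unfold fer
    refine if_congr ⟨?_, ?_⟩ rfl rfl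
    · rintro ⟨h, h'⟩; subst h; subst h'; exact ⟨rfl, rfl⟩
    · rintro ⟨h, h'⟩; subst h; subst h'; exact ⟨rfl, rfl⟩
  have h2 : fer i j k = fer i k j := by
    unfold fer
    refine if_congr ⟨?_, ?_⟩ rfl rfl
    · rintro ⟨h, h'⟩; subst h; subst h'; exact ⟨rfl, rfl⟩
    · rintro ⟨h, h'⟩; subst h; subst h'; exact ⟨rfl, rfl⟩
  unfold seg
  rw [← h1, ← h2, ← (hs i j k).1, ← (hs i j k).2]
  exact ⟨rfl, rfl⟩

/-- derivative along a line -/
theorem hasDerivAt_tf (u v w a b d : Fin 4 → ℂ) :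
    HasDerivAt (fun s : ℂ => tf t (u + s • a) (v + s • b) (w + s • d))
      (tf t a v w + tf t u b w + tf t u v d) 0 := by
  have e : (fun s : ℂ => tf t (u + s • a) (v + s • b) (w + s • d)) = fun s : ℂ =>
      tf t u v w + s * (tf t a v w + tf t u b w + tf t u v d) +
        s ^ 2 * (tf t a b w + tf t a v d + tf t u b d) + s ^ 3 * tf t a b d := by
    funext s
    simp only [tf_add1, tf_add2, tf_add3, tf_smul1, tf_smul2, tf_smul3]
    ring
  rw [e]
  have h1 := ((hasDerivAt_id (0 : ℂ)).mul_const (tf t a v w + tf t u b w + tf t u v d)).const_add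
    (tf t u v w)
  have h2 := ((hasDerivAt_pow 2 (0 : ℂ)).mul_const (tf t a b w + tf t a v d + tf t u b d))
  have h3 := ((hasDerivAt_pow 3 (0 : ℂ)).mul_const (tf t a b d))
  have h4 := (h1.add h2).add h3
  refine (h4.congr_deriv ?_)
  norm_num

/-- a binary quadratic form has a root -/
theorem root2 (p q r : ℂ) : ∃ s s' : ℂ, ¬ (s = 0 ∧ s' = 0) ∧ p * s ^ 2 + q * s * s' + r * s' ^ 2 = 0 := by
  by_cases hp : p = 0
  · exact ⟨1, 0, by simp, by rw [hp]; ring⟩
  · obtain ⟨d, hd⟩ := IsAlgClosed.exists_eq_mul_self (discrim p q r)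
    obtain ⟨x, hx⟩ := exists_quadratic_eq_zero hp ⟨d, hd⟩
    exact ⟨x, 1, by simp, by linear_combination hx⟩

/-- the algebra behind the surjectivity -/
theorem alg {X : Type} (P Q R : X → ℂ) {b0 b1 b2 b3 : ℂ}
    (h1 : ∀ y, b0 * P y + b1 * Q y + b2 * R y = 0) (h2 : ∀ y, b1 * P y + b2 * Q y + b3 * R y = 0)
    (hb : ¬ (b0 = 0 ∧ b1 = 0 ∧ b2 = 0 ∧ b3 = 0)) :
    ∃ s r : ℂ, ¬ (s = 0 ∧ r = 0) ∧ ∀ y, s ^ 2 * P y + s * r * Q y + r ^ 2 * R y = 0 := by
  by_cases hm : b1 * b3 - b2 ^ 2 = 0 ∧ b1 * b2 - b0 * b3 = 0 ∧ b0 * b2 - b1 ^ 2 = 0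
  · obtain ⟨m1, m2, m3⟩ := hm
    by_cases h3 : b3 = 0
    · have e2 : b2 = 0 := by
        rw [h3] at m1
        have : b2 ^ 2 = 0 := by linear_combination -m1
        exact pow_eq_zero_iff two_ne_zero |>.1 this
      have e1 : b1 = 0 := by
        rw [e2] at m3
        have : b1 ^ 2 = 0 := by linear_combination -m3
        exact pow_eq_zero_iff two_ne_zero |>.1 this
      have e0 : b0 ≠ 0 := fun h => hb ⟨h, e1, e2, h3⟩
      refine ⟨1, 0, by simp, fun y => ?_⟩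
      have h := h1 y
      rw [e1, e2] at h
      have : P y = 0 := by
        have h' : b0 * P y = 0 := by linear_combination h
        exact (mul_eq_zero.1 h').resolve_left e0
      rw [this]; ring
    · refine ⟨b2 / b3, 1, by simp, fun y => ?_⟩
      have e1 : b1 = (b2 / b3) ^ 2 * b3 := by
        field_simp
        linear_combination m1
      have e2 : b2 = b2 / b3 * b3 := by field_simp
      have h := h2 y
      have h' : b3 * ((b2 / b3) ^ 2 * P y + b2 / b3 * 1 * Q y + 1 ^ 2 * R y) = 0 := by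
        calc b3 * ((b2 / b3) ^ 2 * P y + b2 / b3 * 1 * Q y + 1 ^ 2 * R y)
            = ((b2 / b3) ^ 2 * b3) * P y + (b2 / b3 * b3) * Q y + b3 * R y := by ring
          _ = 0 := by rw [← e1, ← e2]; exact h
      exact (mul_eq_zero.1 h').resolve_left h3
  · obtain ⟨s, r, hsr, hr⟩ := root2 (b1 * b3 - b2 ^ 2) (b1 * b2 - b0 * b3) (b0 * b2 - b1 ^ 2)
    refine ⟨s, r, hsr, fun y => ?_⟩
    have c1 : P y * (b1 * b2 - b0 * b3) = Q y * (b1 * b3 - b2 ^ 2) := by
      linear_combination b2 * h2 y - b3 * h1 y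
    have c2 : P y * (b0 * b2 - b1 ^ 2) = R y * (b1 * b3 - b2 ^ 2) := by
      linear_combination b2 * h1 y - b1 * h2 y
    have c3 : Q y * (b0 * b2 - b1 ^ 2) = R y * (b1 * b2 - b0 * b3) := by
      linear_combination b0 * h2 y - b1 * h1 y
    by_cases k1 : b1 * b3 - b2 ^ 2 = 0
    · by_cases k2 : b1 * b2 - b0 * b3 = 0
      · have k3 : b0 * b2 - b1 ^ 2 ≠ 0 := fun k3 => hm ⟨k1, k2, k3⟩
        refine (mul_eq_zero.1 (?_ : (b0 * b2 - b1 ^ 2) * _ = 0)).resolve_left k3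
        linear_combination s ^ 2 * c2 + s * r * c3 + R y * hr
      · refine (mul_eq_zero.1 (?_ : (b1 * b2 - b0 * b3) * _ = 0)).resolve_left k2
        linear_combination s ^ 2 * c1 - r ^ 2 * c3 + Q y * hr
    · refine (mul_eq_zero.1 (?_ : (b1 * b3 - b2 ^ 2) * _ = 0)).resolve_left k1
      linear_combination - s * r * c1 - r ^ 2 * c2 + P y * hr

/-- the four equations of the line u, v -/
def G (t : Fin 4 → Fin 4 → Fin 4 → ℂ) (p : ((Fin 4 → ℂ) × (Fin 4 → ℂ)) × ℂ) :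
    (ℂ × ℂ × ℂ × ℂ) × ℂ :=
  ((tf (seg t p.2) p.1.1 p.1.1 p.1.1, tf (seg t p.2) p.1.1 p.1.1 p.1.2,
    tf (seg t p.2) p.1.1 p.1.2 p.1.2, tf (seg t p.2) p.1.2 p.1.2 p.1.2), p.2)

theorem contDiff_G (t : Fin 4 → Fin 4 → Fin 4 → ℂ) : ContDiff ℂ 1 (G t) := by
  unfold G tf seg
  fun_prop

/-- the derivative of G in the direction of u, v -/
theorem fderiv_G (hs : Sy t) (u v a b : Fin 4 → ℂ) (c : ℂ) :
    fderiv ℂ (G t) ((u, v), c) ((a, b), 0) =
      ((3 * tf (seg t c) u u a, 2 * tf (seg t c) u v a + tf (seg t c) u u b,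
        tf (seg t c) v v a + 2 * tf (seg t c) u v b, 3 * tf (seg t c) v v b), 0) := by
  have hd : HasFDerivAt (G t) (fderiv ℂ (G t) ((u, v), c)) ((u, v), c) :=
    ((contDiff_G t).differentiable one_ne_zero _).hasFDerivAt
  have hl : HasDerivAt (fun s : ℂ => (((u, v), c) : ((Fin 4 → ℂ) × (Fin 4 → ℂ)) × ℂ) +
      s • ((a, b), (0 : ℂ))) ((a, b), (0 : ℂ)) 0 := by
    have h := ((hasDerivAt_id (0 : ℂ)).smul_const
      (((a, b), (0 : ℂ)) : ((Fin 4 → ℂ) × (Fin 4 → ℂ)) × ℂ)).const_add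
      (((u, v), c) : ((Fin 4 → ℂ) × (Fin 4 → ℂ)) × ℂ)
    simpa using h
  have hd' : HasFDerivAt (G t) (fderiv ℂ (G t) ((u, v), c))
      ((((u, v), c) : ((Fin 4 → ℂ) × (Fin 4 → ℂ)) × ℂ) + (0 : ℂ) • ((a, b), (0 : ℂ))) := by
    rw [zero_smul, add_zero]
    exact hd
  have h1 := hd'.comp_hasDerivAt (0 : ℂ) hl
  have k1 := hasDerivAt_tf (t := seg t c) u u u a a a
  have k2 := hasDerivAt_tf (t := seg t c) u u v a a b
  have k3 := hasDerivAt_tf (t := seg t c) u v v a b b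
  have k4 := hasDerivAt_tf (t := seg t c) v v v b b b
  have h2 := (k1.prodMk (k2.prodMk (k3.prodMk k4))).prodMk (hasDerivAt_const (0 : ℂ) c)
  have e : (G t ∘ fun s : ℂ => (((u, v), c) : ((Fin 4 → ℂ) × (Fin 4 → ℂ)) × ℂ) +
      s • ((a, b), (0 : ℂ))) = fun s : ℂ =>
      ((tf (seg t c) (u + s • a) (u + s • a) (u + s • a),
        tf (seg t c) (u + s • a) (u + s • a) (v + s • b),
        tf (seg t c) (u + s • a) (v + s • b) (v + s • b),
        tf (seg t c) (v + s • b) (v + s • b) (v + s • b)), c) := by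
    funext s
    simp [G]
  rw [e] at h1
  rw [h1.unique h2]
  have hs' := sy_seg hs c
  have q1 : tf (seg t c) a u u = tf (seg t c) u u a := by
    rw [tf_swap12 hs', tf_swap23 hs']
  have q2 : tf (seg t c) u a u = tf (seg t c) u u a := by rw [tf_swap23 hs']
  have q3 : tf (seg t c) a u v = tf (seg t c) u v a := by
    rw [tf_swap12 hs', tf_swap23 hs']
  have q4 : tf (seg t c) u a v = tf (seg t c) u v a := by rw [tf_swap23 hs']
  have q5 : tf (seg t c) a v v = tf (seg t c) v v a := by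
    rw [tf_swap12 hs', tf_swap23 hs']
  have q6 : tf (seg t c) u b v = tf (seg t c) u v b := by rw [tf_swap23 hs']
  have q7 : tf (seg t c) b v v = tf (seg t c) v v b := by
    rw [tf_swap12 hs', tf_swap23 hs']
  have q8 : tf (seg t c) v b v = tf (seg t c) v v b := by rw [tf_swap23 hs']
  rw [q1, q2, q3, q4, q5, q6, q7, q8]
  refine Prod.ext (Prod.ext ?_ (Prod.ext ?_ (Prod.ext ?_ ?_))) rfl
  · show _ + _ + _ = _; ring
  · show _ + _ + _ = _; ring
  · show _ + _ + _ = _; ring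
  · show _ + _ + _ = _; ring

theorem fderiv_G_snd (w : ((Fin 4 → ℂ) × (Fin 4 → ℂ)) × ℂ) (p : ((Fin 4 → ℂ) × (Fin 4 → ℂ)) × ℂ) :
    (fderiv ℂ (G t) p w).2 = w.2 := by
  have hd : HasFDerivAt (G t) (fderiv ℂ (G t) p) p :=
    ((contDiff_G t).differentiable one_ne_zero _).hasFDerivAt
  have h1 : HasFDerivAt (fun p => (G t p).2) _ p := hd.snd
  have h2 : HasFDerivAt (fun p : ((Fin 4 → ℂ) × (Fin 4 → ℂ)) × ℂ => (G t p).2)
      (ContinuousLinearMap.snd ℂ ((Fin 4 → ℂ) × (Fin 4 → ℂ)) ℂ) p := hasFDerivAt_snd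
  have h3 := h1.unique h2
  have h4 := DFunLike.congr_fun h3 w
  exact h4

/-- the derivative is onto at a line of a smooth surface -/
theorem surj_G (hs : Sy t) {u v : Fin 4 → ℂ} {c : ℂ} (hsm : SmT (seg t c))
    (huv : LinearIndependent ℂ ![u, v]) :
    Function.Surjective (fderiv ℂ (G t) ((u, v), c)) := by
  have hs' := sy_seg hs c
  set A := fderiv ℂ (G t) ((u, v), c) with hA
  -- the partial map
  set B : (Fin 4 → ℂ) × (Fin 4 → ℂ) →ₗ[ℂ] ℂ × ℂ × ℂ × ℂ :=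
    LinearMap.fst ℂ (ℂ × ℂ × ℂ × ℂ) ℂ ∘ₗ A.toLinearMap ∘ₗ
      LinearMap.inl ℂ ((Fin 4 → ℂ) × (Fin 4 → ℂ)) ℂ with hB
  have hBa : ∀ a b, B (a, b) = (3 * tf (seg t c) u u a, 2 * tf (seg t c) u v a +
      tf (seg t c) u u b, tf (seg t c) v v a + 2 * tf (seg t c) u v b, 3 * tf (seg t c) v v b) := by
    intro a b
    have h := fderiv_G hs u v a b c
    show (A ((a, b), 0)).1 = _
    rw [hA, h]
  have hBt : LinearMap.range B = ⊤ := by
    by_contra hne
    obtain ⟨f, hf0, hf⟩ := Submodule.exists_le_ker_of_lt_top _ (lt_top_iff_ne_top.2 hne)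
    have hfB : ∀ w, f (B w) = 0 := fun w => hf ⟨w, rfl⟩
    have hfe : ∀ y0 y1 y2 y3 : ℂ, f (y0, y1, y2, y3) = y0 * f (1, 0, 0, 0) + y1 * f (0, 1, 0, 0) +
        y2 * f (0, 0, 1, 0) + y3 * f (0, 0, 0, 1) := by
      intro y0 y1 y2 y3
      have e : ((y0, y1, y2, y3) : ℂ × ℂ × ℂ × ℂ) = y0 • (1, 0, 0, 0) + y1 • (0, 1, 0, 0) +
          y2 • (0, 0, 1, 0) + y3 • (0, 0, 0, 1) := by simp
      conv_lhs => rw [e]
      simp only [map_add, map_smul, smul_eq_mul]
    set f0 := f (1, 0, 0, 0) with hf0'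
    set f1 := f (0, 1, 0, 0) with hf1'
    set f2 := f (0, 0, 1, 0) with hf2'
    set f3 := f (0, 0, 0, 1) with hf3'
    have r1 : ∀ y, (3 * f0) * tf (seg t c) u u y + f1 * (2 * tf (seg t c) u v y) +
        f2 * tf (seg t c) v v y = 0 := by
      intro y
      have h := hfB (y, 0)
      rw [hBa, hfe] at h
      have z1 : tf (seg t c) u u 0 = 0 := by simp [tf]
      have z2 : tf (seg t c) u v 0 = 0 := by simp [tf]
      have z3 : tf (seg t c) v v 0 = 0 := by simp [tf]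
      rw [z1, z2, z3] at h
      linear_combination h
    have r2 : ∀ y, f1 * tf (seg t c) u u y + f2 * (2 * tf (seg t c) u v y) +
        (3 * f3) * tf (seg t c) v v y = 0 := by
      intro y
      have h := hfB (0, y)
      rw [hBa, hfe] at h
      have z1 : tf (seg t c) u u 0 = 0 := by simp [tf]
      have z2 : tf (seg t c) u v 0 = 0 := by simp [tf]
      have z3 : tf (seg t c) v v 0 = 0 := by simp [tf]
      rw [z1, z2, z3] at h
      linear_combination h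
    obtain ⟨s, r, hsr, hz⟩ := alg _ _ _ r1 r2 (by
      rintro ⟨k0, k1, k2, k3⟩
      apply hf0
      have k0' : f0 = 0 := by
        have : (3 : ℂ) ≠ 0 := by norm_num
        exact (mul_eq_zero.1 k0).resolve_left this
      have k3' : f3 = 0 := by
        have : (3 : ℂ) ≠ 0 := by norm_num
        exact (mul_eq_zero.1 k3).resolve_left this
      refine LinearMap.ext fun y => ?_
      obtain ⟨y0, y1, y2, y3⟩ := y
      rw [hfe, k0', k1, k2, k3']
      simp)
    have hx := hsm (s • u + r • v) (fun y => by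
      have h := hz y
      simp only [tf_add1, tf_add2, tf_smul1, tf_smul2]
      rw [tf_swap12 hs' v u y]
      linear_combination h)
    exact hsr (LinearIndependent.pair_iff.1 huv s r hx)
  rintro ⟨y, s⟩
  obtain ⟨w, hw⟩ := LinearMap.range_eq_top.1 hBt (y - (A (0, s)).1)
  refine ⟨(w, s), ?_⟩
  have e : ((w, s) : ((Fin 4 → ℂ) × (Fin 4 → ℂ)) × ℂ) = (w, 0) + (0, s) := by simp
  show A (w, s) = (y, s)
  refine Prod.ext ?_ ?_
  · rw [e, map_add]
    show (A (w, 0)).1 + (A (0, s)).1 = y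
    have hw' : (A (w, 0)).1 = y - (A (0, s)).1 := hw
    rw [hw']
    simp
  · exact fderiv_G_snd _ _

end CD

/-- **(d)** at a smooth parameter the existence of a line is an open condition -/
theorem hasL_open (t : Fin 4 → Fin 4 → Fin 4 → ℂ)
    (hs : ∀ i j k, t i j k = t j i k ∧ t i j k = t i k j) (c0 : ℂ) (hsm : SmT (seg t c0))
    (h : HasL (seg t c0)) : ∀ᶠ c in 𝓝 c0, HasL (seg t c) := by
  obtain ⟨u, v, huv, h1, h2, h3, h4⟩ := h
  have hst : HasStrictFDerivAt (CD.G t) (fderiv ℂ (CD.G t) ((u, v), c0)) ((u, v), c0) :=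
    (CD.contDiff_G t).contDiffAt.hasStrictFDerivAt one_ne_zero
  have hmap := hst.map_nhds_eq_of_surj (LinearMap.range_eq_top.2 (CD.surj_G hs hsm huv))
  have hG0 : CD.G t ((u, v), c0) = ((0, 0, 0, 0), c0) := by
    unfold CD.G
    simp only [h1, h2, h3, h4]
  have hopen : IsOpen {p : ((Fin 4 → ℂ) × (Fin 4 → ℂ)) × ℂ |
      LinearIndependent ℂ ![p.1.1, p.1.2]} := by
    have hc : Continuous fun p : ((Fin 4 → ℂ) × (Fin 4 → ℂ)) × ℂ => (![p.1.1, p.1.2] :
        Fin 2 → Fin 4 → ℂ) := by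
      refine continuous_pi fun i => ?_
      fin_cases i
      · exact continuous_fst.fst
      · exact continuous_fst.snd
    exact (isOpen_setOfPred_linearIndependent (𝕜 := ℂ) (E := Fin 4 → ℂ) (ι := Fin 2)).preimage hc
  have hN : {p : ((Fin 4 → ℂ) × (Fin 4 → ℂ)) × ℂ | LinearIndependent ℂ ![p.1.1, p.1.2]} ∈
      𝓝 (((u, v), c0) : ((Fin 4 → ℂ) × (Fin 4 → ℂ)) × ℂ) := hopen.mem_nhds huv
  have hI := Filter.image_mem_map (m := CD.G t) hN
  rw [hmap, hG0] at hI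
  have hc : Tendsto (fun c : ℂ => (((0, 0, 0, 0), c) : (ℂ × ℂ × ℂ × ℂ) × ℂ)) (𝓝 c0)
      (𝓝 ((0, 0, 0, 0), c0)) := by
    refine Continuous.tendsto' ?_ _ _ rfl
    fun_prop
  filter_upwards [hc hI] with c hcI
  obtain ⟨⟨⟨u', v'⟩, c'⟩, hli, hGe⟩ := hcI
  have hc' : c' = c := congrArg Prod.snd hGe
  subst hc'
  have g1 := congrArg (fun q : (ℂ × ℂ × ℂ × ℂ) × ℂ => q.1.1) hGe
  have g2 := congrArg (fun q : (ℂ × ℂ × ℂ × ℂ) × ℂ => q.1.2.1) hGe
  have g3 := congrArg (fun q : (ℂ × ℂ × ℂ × ℂ) × ℂ => q.1.2.2.1) hGe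
  have g4 := congrArg (fun q : (ℂ × ℂ × ℂ × ℂ) × ℂ => q.1.2.2.2) hGe
  exact ⟨u', v', hli, g1, g2, g3, g4⟩

/-! ### (c) closedness -/

namespace CD

variable {t : Fin 4 → Fin 4 → Fin 4 → ℂ}

/-- orthonormal frames -/
def KK : Set ((Fin 4 → ℂ) × (Fin 4 → ℂ)) :=
  {p | ∑ i, ‖p.1 i‖ ^ 2 = 1 ∧ ∑ i, ‖p.2 i‖ ^ 2 = 1 ∧ ∑ i, star (p.1 i) * p.2 i = 0}

theorem norm_le_one {u : Fin 4 → ℂ} (h : ∑ i, ‖u i‖ ^ 2 = 1) : ‖u‖ ≤ 1 := by
  rw [pi_norm_le_iff_of_nonneg zero_le_one]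
  intro i
  have h1 : ‖u i‖ ^ 2 ≤ ∑ i, ‖u i‖ ^ 2 :=
    Finset.single_le_sum (f := fun i => ‖u i‖ ^ 2) (fun j _ => sq_nonneg _) (Finset.mem_univ i)
  rw [h] at h1
  have h2 := norm_nonneg (u i)
  nlinarith

theorem isCompact_KK : IsCompact KK := by
  refine (isCompact_closedBall (0 : (Fin 4 → ℂ) × (Fin 4 → ℂ)) 1).of_isClosed_subset ?_ ?_
  · refine IsClosed.inter ?_ (IsClosed.inter ?_ ?_)
    · exact isClosed_eq (by fun_prop) continuous_const
    · exact isClosed_eq (by fun_prop) continuous_const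
    · exact isClosed_eq (by fun_prop) continuous_const
  · rintro ⟨u, v⟩ ⟨h1, h2, -⟩
    rw [mem_closedBall_zero_iff, Prod.norm_def]
    exact max_le (norm_le_one h1) (norm_le_one h2)

theorem sum_star (u : Fin 4 → ℂ) : ∑ i, star (u i) * u i = ((∑ i, ‖u i‖ ^ 2 : ℝ) : ℂ) := by
  push_cast
  refine Finset.sum_congr rfl fun i _ => ?_
  rw [Complex.star_def, Complex.conj_mul']

/-- frames in the same plane -/
theorem eqs_of (hs : Sy t) {u v : Fin 4 → ℂ} (h1 : tf t u u u = 0) (h2 : tf t u u v = 0)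
    (h3 : tf t u v v = 0) (h4 : tf t v v v = 0) (α β γ : ℂ) :
    tf t (α • u) (α • u) (α • u) = 0 ∧ tf t (α • u) (α • u) (β • v + γ • u) = 0 ∧
      tf t (α • u) (β • v + γ • u) (β • v + γ • u) = 0 ∧
      tf t (β • v + γ • u) (β • v + γ • u) (β • v + γ • u) = 0 := by
  have k1 : tf t u v u = 0 := by rw [tf_swap23 hs]; exact h2
  have k2 : tf t v u u = 0 := by rw [tf_swap12 hs]; exact k1
  have k3 : tf t v u v = 0 := by rw [tf_swap12 hs]; exact h3
  have k4 : tf t v v u = 0 := by rw [tf_swap23 hs]; exact k3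
  refine ⟨?_, ?_, ?_, ?_⟩ <;>
    simp only [tf_add1, tf_add2, tf_add3, tf_smul1, tf_smul2, tf_smul3, h1, h2, h3, h4, k1, k2,
      k3, k4, mul_zero, add_zero]

theorem exists_KK (hs : Sy t) (h : HasL t) : ∃ p ∈ KK, tf t p.1 p.1 p.1 = 0 ∧
    tf t p.1 p.1 p.2 = 0 ∧ tf t p.1 p.2 p.2 = 0 ∧ tf t p.2 p.2 p.2 = 0 := by
  obtain ⟨u, v, huv, h1, h2, h3, h4⟩ := h
  have hpos : ∀ w : Fin 4 → ℂ, w ≠ 0 → 0 < ∑ i, ‖w i‖ ^ 2 := by
    intro w hw
    obtain ⟨i, hi⟩ := Function.ne_iff.1 hw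
    refine Finset.sum_pos' (fun j _ => sq_nonneg _) ⟨i, Finset.mem_univ i, ?_⟩
    exact pow_pos (norm_pos_iff.2 hi) 2
  have hnorm : ∀ w : Fin 4 → ℂ, w ≠ 0 → ∃ r : ℂ, r ≠ 0 ∧ ∑ i, ‖(r • w) i‖ ^ 2 = 1 := by
    intro w hw
    have hp := hpos w hw
    refine ⟨((Real.sqrt (∑ i, ‖w i‖ ^ 2))⁻¹ : ℝ), ?_, ?_⟩
    · exact_mod_cast (inv_pos.2 (Real.sqrt_pos.2 hp)).ne'
    · have e : ∀ i, ‖((((Real.sqrt (∑ i, ‖w i‖ ^ 2))⁻¹ : ℝ) : ℂ) • w) i‖ ^ 2 =
          (∑ i, ‖w i‖ ^ 2)⁻¹ * ‖w i‖ ^ 2 := by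
        intro i
        rw [Pi.smul_apply, norm_smul, mul_pow, Complex.norm_real, Real.norm_eq_abs, sq_abs,
          inv_pow, Real.sq_sqrt hp.le]
      rw [Finset.sum_congr rfl fun i _ => e i, ← Finset.mul_sum]
      exact inv_mul_cancel₀ hp.ne'
  have hu0 : u ≠ 0 := by
    intro h0
    have := LinearIndependent.pair_iff.1 huv 1 0 (by rw [h0]; simp)
    exact one_ne_zero this.1
  obtain ⟨α, hα, hu1⟩ := hnorm u hu0
  set c : ℂ := ∑ i, star ((α • u) i) * v i with hc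
  have hw0 : v - c • (α • u) ≠ 0 := by
    intro h0
    have := LinearIndependent.pair_iff.1 huv (-(c * α)) 1 (by
      rw [neg_smul, one_smul, mul_smul, neg_add_eq_sub]
      exact h0)
    exact one_ne_zero this.2
  obtain ⟨β, hβ, hv1⟩ := hnorm _ hw0
  have hv' : β • (v - c • (α • u)) = β • v + (-(β * c * α)) • u := by
    ext i
    simp only [Pi.smul_apply, Pi.sub_apply, Pi.add_apply, smul_eq_mul]
    ring
  refine ⟨(α • u, β • v + (-(β * c * α)) • u), ⟨hu1, ?_, ?_⟩, eqs_of hs h1 h2 h3 h4 _ _ _⟩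
  · rw [← hv']
    exact hv1
  · show ∑ i, star ((α • u) i) * (β • v + (-(β * c * α)) • u) i = 0
    rw [← hv']
    have e : ∀ i, star ((α • u) i) * (β • (v - c • (α • u))) i =
        β * (star ((α • u) i) * v i) - β * c * (star ((α • u) i) * (α • u) i) := by
      intro i
      simp only [Pi.smul_apply, Pi.sub_apply, smul_eq_mul]
      ring
    rw [Finset.sum_congr rfl fun i _ => e i, Finset.sum_sub_distrib, ← Finset.mul_sum,
      ← Finset.mul_sum, ← hc, sum_star, hu1]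
    simp

theorem li_of_KK {p : (Fin 4 → ℂ) × (Fin 4 → ℂ)} (hp : p ∈ KK) :
    LinearIndependent ℂ ![p.1, p.2] := by
  obtain ⟨u, v⟩ := p
  obtain ⟨h1, h2, h3⟩ := hp
  rw [LinearIndependent.pair_iff]
  intro a b hab
  have h0 : ∀ i, a * u i + b * v i = 0 := fun i => congrFun hab i
  have ha : a = 0 := by
    have e : ∑ i, star (u i) * (a * u i + b * v i) = 0 :=
      Finset.sum_eq_zero fun i _ => by rw [h0 i, mul_zero]
    have e' : ∑ i, star (u i) * (a * u i + b * v i) =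
        a * ∑ i, star (u i) * u i + b * ∑ i, star (u i) * v i := by
      rw [Finset.mul_sum, Finset.mul_sum, ← Finset.sum_add_distrib]
      exact Finset.sum_congr rfl fun i _ => by ring
    rw [e', sum_star] at e
    have h1' : ∑ i, ‖u i‖ ^ 2 = 1 := h1
    have h3' : ∑ i, star (u i) * v i = 0 := h3
    rw [h1', h3'] at e
    simpa using e
  refine ⟨ha, ?_⟩
  have e : ∑ i, star (v i) * (a * u i + b * v i) = 0 :=
    Finset.sum_eq_zero fun i _ => by rw [h0 i, mul_zero]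
  have e' : ∑ i, star (v i) * (a * u i + b * v i) = b * ∑ i, star (v i) * v i := by
    rw [ha, Finset.mul_sum]
    exact Finset.sum_congr rfl fun i _ => by ring
  have h2' : ∑ i, ‖v i‖ ^ 2 = 1 := h2
  rw [e', sum_star, h2'] at e
  simpa using e

end CD

/-- **(c)** the set of parameters with a line is closed -/
theorem hasL_closed (t : Fin 4 → Fin 4 → Fin 4 → ℂ)
    (hs : ∀ i j k, t i j k = t j i k ∧ t i j k = t i k j) :
    IsClosed {c : ℂ | HasL (seg t c)} := by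
  have : CompactSpace CD.KK := isCompact_iff_compactSpace.1 CD.isCompact_KK
  have hS : IsClosed {q : ℂ × CD.KK | tf (seg t q.1) q.2.1.1 q.2.1.1 q.2.1.1 = 0 ∧
      tf (seg t q.1) q.2.1.1 q.2.1.1 q.2.1.2 = 0 ∧ tf (seg t q.1) q.2.1.1 q.2.1.2 q.2.1.2 = 0 ∧
      tf (seg t q.1) q.2.1.2 q.2.1.2 q.2.1.2 = 0} := by
    refine IsClosed.inter ?_ (IsClosed.inter ?_ (IsClosed.inter ?_ ?_)) <;>
    · refine isClosed_eq ?_ continuous_const
      unfold tf seg
      fun_prop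
  have h1 := isClosedMap_fst_of_compactSpace (X := ℂ) (Y := CD.KK) _ hS
  have e : {c : ℂ | HasL (seg t c)} = Prod.fst '' {q : ℂ × CD.KK |
      tf (seg t q.1) q.2.1.1 q.2.1.1 q.2.1.1 = 0 ∧
      tf (seg t q.1) q.2.1.1 q.2.1.1 q.2.1.2 = 0 ∧ tf (seg t q.1) q.2.1.1 q.2.1.2 q.2.1.2 = 0 ∧
      tf (seg t q.1) q.2.1.2 q.2.1.2 q.2.1.2 = 0} := by
    ext c
    constructor
    · intro h
      obtain ⟨p, hp, he⟩ := CD.exists_KK (CD.sy_seg hs c) h
      exact ⟨(c, ⟨p, hp⟩), he, rfl⟩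
    · rintro ⟨⟨c', p, hp⟩, he, hc⟩
      have hc' : c' = c := hc
      subst hc'
      exact ⟨p.1, p.2, CD.li_of_KK hp, he⟩
  rw [e]
  exact h1

end P287H468
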