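import Mathlib

set_option autoImplicit false

/-!
# P287: lines on smooth cubic surfaces, row N2a: a second line which meets a given line
-/

open Polynomial Module

namespace P287H149
namespace N2a

theorem root5 (a b c d e f : ℂ) : ∃ s t : ℂ, ¬ (s = 0 ∧ t = 0) ∧
    a * s ^ 5 + b * s ^ 4 * t + c * s ^ 3 * t ^ 2 + d * s ^ 2 * t ^ 3 + e * s * t ^ 4 + f * t ^ 5 =
      0 := by
  by_cases ha : a = 0
  · exact ⟨1, 0, by simp, by rw [ha]; ring⟩
  · have h : (C a * X ^ 5 + C b * X ^ 4 + C c * X ^ 3 + C d * X ^ 2 + C e * X + C f : ℂ[X]).degree =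
        5 := by
      compute_degree!
    obtain ⟨x, hx⟩ := IsAlgClosed.exists_root
      (C a * X ^ 5 + C b * X ^ 4 + C c * X ^ 3 + C d * X ^ 2 + C e * X + C f : ℂ[X])
      (by rw [h]; norm_num)
    refine ⟨x, 1, by simp, ?_⟩
    have hx' : a * x ^ 5 + b * x ^ 4 + c * x ^ 3 + d * x ^ 2 + e * x + f = 0 := by
      simpa [IsRoot.def] using hx
    linear_combination hx'

/-- the discriminant of the conics of the planes through a line is a binary quintic -/
theorem quintic (A0 A1 B0 B1 C0 C1 D0 D1 D2 E0 E1 E2 G0 G1 G2 G3 : ℂ) :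
    ∃ s t : ℂ, ¬ (s = 0 ∧ t = 0) ∧ ∀ A B C D E G : ℂ, A = A0 * s + A1 * t → B = B0 * s + B1 * t →
      C = C0 * s + C1 * t → D = D0 * s ^ 2 + 2 * D1 * s * t + D2 * t ^ 2 →
      E = E0 * s ^ 2 + 2 * E1 * s * t + E2 * t ^ 2 →
      G = G0 * s ^ 3 + 3 * G1 * s ^ 2 * t + 3 * G2 * s * t ^ 2 + G3 * t ^ 3 →
      4 * (A * C - B ^ 2) * G + 6 * B * D * E - 3 * C * D ^ 2 - 3 * A * E ^ 2 = 0 := by
  obtain ⟨s, t, hst, h⟩ := root5
    (4 * A0 * C0 * G0 - 3 * A0 * E0 ^ 2 + 6 * B0 * D0 * E0 - 4 * B0 ^ 2 * G0 - 3 * C0 * D0 ^ 2)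
    (12 * A0 * C0 * G1 + 4 * A0 * C1 * G0 - 12 * A0 * E0 * E1 + 4 * A1 * C0 * G0 - 3 * A1 * E0
      ^ 2 - 8 * B0 * B1 * G0 + 12 * B0 * D0 * E1 + 12 * B0 * D1 * E0 - 12 * B0 ^ 2 * G1 + 6 *
      B1 * D0 * E0 - 12 * C0 * D0 * D1 - 3 * C1 * D0 ^ 2)
    (12 * A0 * C0 * G2 + 12 * A0 * C1 * G1 - 6 * A0 * E0 * E2 - 12 * A0 * E1 ^ 2 + 12 * A1 *
      C0 * G1 + 4 * A1 * C1 * G0 - 12 * A1 * E0 * E1 - 24 * B0 * B1 * G1 + 6 * B0 * D0 * E2 +
      24 * B0 * D1 * E1 + 6 * B0 * D2 * E0 - 12 * B0 ^ 2 * G2 + 12 * B1 * D0 * E1 + 12 * B1 *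
      D1 * E0 - 4 * B1 ^ 2 * G0 - 6 * C0 * D0 * D2 - 12 * C0 * D1 ^ 2 - 12 * C1 * D0 * D1)
    (4 * A0 * C0 * G3 + 12 * A0 * C1 * G2 - 12 * A0 * E1 * E2 + 12 * A1 * C0 * G2 + 12 * A1 *
      C1 * G1 - 6 * A1 * E0 * E2 - 12 * A1 * E1 ^ 2 - 24 * B0 * B1 * G2 + 12 * B0 * D1 * E2 +
      12 * B0 * D2 * E1 - 4 * B0 ^ 2 * G3 + 6 * B1 * D0 * E2 + 24 * B1 * D1 * E1 + 6 * B1 * D2
      * E0 - 12 * B1 ^ 2 * G1 - 12 * C0 * D1 * D2 - 6 * C1 * D0 * D2 - 12 * C1 * D1 ^ 2)
    (4 * A0 * C1 * G3 - 3 * A0 * E2 ^ 2 + 4 * A1 * C0 * G3 + 12 * A1 * C1 * G2 - 12 * A1 * E1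
      * E2 - 8 * B0 * B1 * G3 + 6 * B0 * D2 * E2 + 12 * B1 * D1 * E2 + 12 * B1 * D2 * E1 - 12 *
      B1 ^ 2 * G2 - 3 * C0 * D2 ^ 2 - 12 * C1 * D1 * D2)
    (4 * A1 * C1 * G3 - 3 * A1 * E2 ^ 2 + 6 * B1 * D2 * E2 - 4 * B1 ^ 2 * G3 - 3 * C1 * D2 ^ 2)
  refine ⟨s, t, hst, ?_⟩
  rintro A B C D E G rfl rfl rfl rfl rfl rfl
  linear_combination h

/-- a binary quadratic form has a root -/
theorem root2 (p q r : ℂ) :
    ∃ s s' : ℂ, ¬ (s = 0 ∧ s' = 0) ∧ p * s ^ 2 + q * s * s' + r * s' ^ 2 = 0 := by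
  by_cases hp : p = 0
  · exact ⟨1, 0, by simp, by rw [hp]; ring⟩
  · obtain ⟨d, hd⟩ := IsAlgClosed.exists_eq_mul_self (discrim p q r)
    obtain ⟨x, hx⟩ := exists_quadratic_eq_zero hp ⟨d, hd⟩
    exact ⟨x, 1, by simp, by linear_combination hx⟩

/-- a quadratic polynomial has a root -/
theorem root2' (p q r : ℂ) (hp : p ≠ 0) : ∃ x : ℂ, p * x ^ 2 + q * x + r = 0 := by
  obtain ⟨d, hd⟩ := IsAlgClosed.exists_eq_mul_self (discrim p q r)
  obtain ⟨x, hx⟩ := exists_quadratic_eq_zero hp ⟨d, hd⟩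
  exact ⟨x, by linear_combination hx⟩

/-- a degenerate conic contains a line -/
theorem conic {A B C D E G : ℂ}
    (hd : 4 * (A * C - B ^ 2) * G + 6 * B * D * E - 3 * C * D ^ 2 - 3 * A * E ^ 2 = 0)
    (h : ¬ (A = 0 ∧ B = 0 ∧ C = 0)) :
    ∃ a b c d r : ℂ, ¬ (a = 0 ∧ b = 0) ∧ r ≠ 0 ∧
      (A * a ^ 2 + 2 * B * a * b + C * b ^ 2 = 0) ∧
      (2 * A * a * c + 2 * B * (a * d + b * c) + 2 * C * b * d + r * (a * D + b * E) = 0) ∧
      (A * c ^ 2 + 2 * B * c * d + C * d ^ 2 + r * (c * D + d * E) + r ^ 2 * (G / 3) = 0) := by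
  have hdet : (!![A, B, D / 2; B, C, E / 2; D / 2, E / 2, G / 3] :
      Matrix (Fin 3) (Fin 3) ℂ).det = 0 := by
    rw [Matrix.det_fin_three]
    simp only [Matrix.of_apply, Matrix.cons_val', Matrix.cons_val_zero, Matrix.cons_val_one,
      Matrix.cons_val]
    linear_combination (1 / 12) * hd
  obtain ⟨k, hk0, hk⟩ := Matrix.exists_mulVec_eq_zero_iff.2 hdet
  have e1 : A * k 0 + B * k 1 + D / 2 * k 2 = 0 := by
    have := congrFun hk 0
    simpa [Matrix.mulVec, dotProduct, Fin.sum_univ_three] using this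
  have e2 : B * k 0 + C * k 1 + E / 2 * k 2 = 0 := by
    have := congrFun hk 1
    simpa [Matrix.mulVec, dotProduct, Fin.sum_univ_three] using this
  have e3 : D / 2 * k 0 + E / 2 * k 1 + G / 3 * k 2 = 0 := by
    have := congrFun hk 2
    simpa [Matrix.mulVec, dotProduct, Fin.sum_univ_three] using this
  by_cases hk2 : k 2 = 0
  · rw [hk2] at e1 e2 e3
    by_cases h0 : k 0 = 0
    · have h1 : k 1 ≠ 0 := by
        intro h1
        apply hk0
        ext i
        fin_cases i
        · exact h0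
        · exact h1
        · exact hk2
      rw [h0] at e1 e2 e3
      have hB : B = 0 := by
        have : B * k 1 = 0 := by linear_combination e1
        exact (mul_eq_zero.1 this).resolve_right h1
      have hC : C = 0 := by
        have : C * k 1 = 0 := by linear_combination e2
        exact (mul_eq_zero.1 this).resolve_right h1
      have hE : E = 0 := by
        have : E * k 1 = 0 := by linear_combination 2 * e3
        exact (mul_eq_zero.1 this).resolve_right h1
      have hA : A ≠ 0 := fun hA => h ⟨hA, hB, hC⟩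
      obtain ⟨x, hx⟩ := root2' A D (G / 3) hA
      refine ⟨0, 1, x, 0, 1, by simp, one_ne_zero, ?_, ?_, ?_⟩
      · rw [hC]; ring
      · rw [hB, hE]; ring
      · linear_combination hx
    · have hC : C ≠ 0 := by
        intro hC
        have hB : B = 0 := by
          have : B * k 0 = 0 := by linear_combination e2 - k 1 * hC
          exact (mul_eq_zero.1 this).resolve_right h0
        have hA : A = 0 := by
          have : A * k 0 = 0 := by linear_combination e1 - k 1 * hB
          exact (mul_eq_zero.1 this).resolve_right h0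
        exact h ⟨hA, hB, hC⟩
      obtain ⟨y, hy⟩ := root2' C E (G / 3) hC
      refine ⟨k 0, k 1, 0, y, 1, fun hh => h0 hh.1, one_ne_zero, ?_, ?_, ?_⟩
      · linear_combination k 0 * e1 + k 1 * e2
      · linear_combination 2 * y * e2 + 2 * e3
      · linear_combination hy
  · obtain ⟨y, z, hyz, hq⟩ := root2 A (2 * B) C
    refine ⟨y, z, k 0, k 1, k 2, hyz, hk2, ?_, ?_, ?_⟩
    · linear_combination hq
    · linear_combination 2 * y * e1 + 2 * z * e2
    · linear_combination k 0 * e1 + k 1 * e2 + k 2 * e3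

section Abs

variable {E : Type} [AddCommGroup E] [Module ℂ E] {T : E →ₗ[ℂ] E →ₗ[ℂ] E →ₗ[ℂ] ℂ}

theorem s13 (h12 : ∀ x y z, T x y z = T y x z) (h23 : ∀ x y z, T x y z = T x z y) (x y z : E) :
    T x y z = T z y x := by
  rw [h12 x y z, h23 y x z, h12 y z x]

/-- the cubic form on a plane -/
theorem cube3 (h12 : ∀ x y z, T x y z = T y x z) (h23 : ∀ x y z, T x y z = T x z y) (x y z : E)
    (a b c : ℂ) :
    T (a • x + b • y + c • z) (a • x + b • y + c • z) (a • x + b • y + c • z) =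
      a ^ 3 * T x x x + 3 * a ^ 2 * b * T x x y + 3 * a ^ 2 * c * T x x z +
      3 * a * b ^ 2 * T x y y + 6 * a * b * c * T x y z + 3 * a * c ^ 2 * T x z z +
      b ^ 3 * T y y y + 3 * b ^ 2 * c * T y y z + 3 * b * c ^ 2 * T y z z + c ^ 3 * T z z z := by
  have g1 : T x y x = T x x y := h23 x y x
  have g2 : T y x x = T x x y := s13 h12 h23 y x x
  have g3 : T x z x = T x x z := h23 x z x
  have g4 : T z x x = T x x z := s13 h12 h23 z x x
  have g5 : T y x y = T x y y := h12 y x y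
  have g6 : T y y x = T x y y := s13 h12 h23 y y x
  have g7 : T z x z = T x z z := h12 z x z
  have g8 : T z z x = T x z z := s13 h12 h23 z z x
  have g9 : T y z y = T y y z := h23 y z y
  have g10 : T z y y = T y y z := s13 h12 h23 z y y
  have g11 : T z y z = T y z z := h12 z y z
  have g12 : T z z y = T y z z := s13 h12 h23 z z y
  have g13 : T x z y = T x y z := h23 x z y
  have g14 : T y x z = T x y z := h12 y x z
  have g15 : T z y x = T x y z := s13 h12 h23 z y x
  have g16 : T y z x = T x y z := by rw [h23 y z x, g14]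
  have g17 : T z x y = T x y z := by rw [h23 z x y, g15]
  simp only [map_add, map_smul, LinearMap.add_apply, LinearMap.smul_apply, smul_eq_mul, g1, g2,
    g3, g4, g5, g6, g7, g8, g9, g10, g11, g12, g13, g14, g15, g16, g17]
  ring

/-- the values on a line of the surface -/
theorem line_vals (h12 : ∀ x y z, T x y z = T y x z) (h23 : ∀ x y z, T x y z = T x z y) {u v : E}
    (h0 : ∀ s t : ℂ, T (s • u + t • v) (s • u + t • v) (s • u + t • v) = 0) :
    T u u u = 0 ∧ T u u v = 0 ∧ T u v v = 0 ∧ T v v v = 0 := by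
  have h : ∀ s t : ℂ, s ^ 3 * T u u u + 3 * s ^ 2 * t * T u u v + 3 * s * t ^ 2 * T u v v +
      t ^ 3 * T v v v = 0 := by
    intro s t
    have h1 := cube3 h12 h23 u v 0 s t 0
    rw [smul_zero, add_zero, h0 s t] at h1
    simp only [map_zero, mul_zero, add_zero] at h1
    exact h1.symm
  have a1 := h 1 0
  have a2 := h 0 1
  have a3 := h 1 1
  have a4 := h 1 (-1)
  have b1 : T u u u = 0 := by linear_combination a1
  have b2 : T v v v = 0 := by linear_combination a2
  have b3 : T u v v = 0 := by linear_combination (1 / 6) * a3 + (1 / 6) * a4 - (1 / 3) * b1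
  refine ⟨b1, ?_, b3, b2⟩
  linear_combination (1 / 6) * a3 - (1 / 6) * a4 - (1 / 3) * b2

/-- in a smooth surface no plane is tangent along a line -/
theorem nz (h12 : ∀ x y z, T x y z = T y x z) (h23 : ∀ x y z, T x y z = T x z y)
    (hsm : ∀ x, (∀ y, T x x y = 0) → x = 0) {e0 e1 u v : E}
    (hspan : ∀ y : E, ∃ a b c d : ℂ, y = a • e0 + b • e1 + c • u + d • v)
    (huv : LinearIndependent ℂ ![u, v]) (h1 : T u u u = 0) (h2 : T u u v = 0) (h3 : T u v v = 0)
    (h4 : T v v v = 0) {s t : ℂ} (hst : ¬ (s = 0 ∧ t = 0))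
    (hA : T (s • e0 + t • e1) u u = 0) (hB : T (s • e0 + t • e1) u v = 0)
    (hC : T (s • e0 + t • e1) v v = 0) : False := by
  have hvu : T v u u = 0 := by rw [s13 h12 h23]; exact h2
  have hvuv : T v u v = 0 := by rw [h12]; exact h3
  have huvu : T u v u = 0 := by rw [h23]; exact h2
  have hvvu : T v v u = 0 := by rw [s13 h12 h23]; exact h3
  -- reduction to a point of the line
  have key : ∀ a b : ℂ, ¬ (a = 0 ∧ b = 0) → T (a • u + b • v) (a • u + b • v) e0 = 0 →
      T (a • u + b • v) (a • u + b • v) e1 = 0 → False := by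
    intro a b hab g0 g1
    have hx : a • u + b • v = 0 := by
      apply hsm
      intro y
      obtain ⟨c0, c1, c2, c3, rfl⟩ := hspan y
      have gu : T (a • u + b • v) (a • u + b • v) u = 0 := by
        simp only [map_add, map_smul, LinearMap.add_apply, LinearMap.smul_apply, smul_eq_mul,
          h1, hvu, huvu, hvvu]
        ring
      have gv : T (a • u + b • v) (a • u + b • v) v = 0 := by
        simp only [map_add, map_smul, LinearMap.add_apply, LinearMap.smul_apply, smul_eq_mul,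
          h2, h3, h4, hvuv]
        ring
      rw [map_add, map_add, map_add, map_smul, map_smul, map_smul, map_smul, g0, g1, gu, gv]
      simp
    exact hab (LinearIndependent.pair_iff.1 huv a b hx)
  have quad : ∀ (a b : ℂ) (w : E), T (a • u + b • v) (a • u + b • v) w =
      T w u u * a ^ 2 + 2 * T w u v * a * b + T w v v * b ^ 2 := by
    intro a b w
    have k1 : T u u w = T w u u := s13 h12 h23 u u w
    have k2 : T u v w = T w u v := by rw [s13 h12 h23 u v w, h23 w v u]
    have k3 : T v u w = T w u v := by rw [h12 v u w, k2]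
    have k4 : T v v w = T w v v := s13 h12 h23 v v w
    simp only [map_add, map_smul, LinearMap.add_apply, LinearMap.smul_apply, smul_eq_mul, k1, k2,
      k3, k4]
    ring
  have lin : ∀ a b : ℂ, s * T (a • u + b • v) (a • u + b • v) e0 +
      t * T (a • u + b • v) (a • u + b • v) e1 = 0 := by
    intro a b
    have h := quad a b (s • e0 + t • e1)
    rw [hA, hB, hC, map_add, map_smul, map_smul, smul_eq_mul, smul_eq_mul] at h
    rw [h]
    ring
  by_cases hs : s = 0
  · have ht : t ≠ 0 := fun ht => hst ⟨hs, ht⟩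
    obtain ⟨a, b, hab, hq⟩ := root2 (T e0 u u) (2 * T e0 u v) (T e0 v v)
    have g0 : T (a • u + b • v) (a • u + b • v) e0 = 0 := by rw [quad]; exact hq
    have h := lin a b
    rw [hs, zero_mul, zero_add] at h
    exact key a b hab g0 ((mul_eq_zero.1 h).resolve_left ht)
  · obtain ⟨a, b, hab, hq⟩ := root2 (T e1 u u) (2 * T e1 u v) (T e1 v v)
    have g1 : T (a • u + b • v) (a • u + b • v) e1 = 0 := by rw [quad]; exact hq
    have h := lin a b
    rw [g1, mul_zero, add_zero] at h
    exact key a b hab ((mul_eq_zero.1 h).resolve_left hs) g1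

/-- completion of two vectors to a basis -/
theorem exists_basis [FiniteDimensional ℂ E] (hdim : finrank ℂ E = 4) {u v : E}
    (huv : LinearIndependent ℂ ![u, v]) : ∃ e0 e1 : E, LinearIndependent ℂ ![e0, e1, u, v] ∧
      ∀ y : E, ∃ a b c d : ℂ, y = a • e0 + b • e1 + c • u + d • v := by
  obtain ⟨e1, h1⟩ := exists_linearIndependent_cons_of_lt_finrank huv (by rw [hdim]; norm_num)
  obtain ⟨e0, h0⟩ := exists_linearIndependent_cons_of_lt_finrank h1 (by rw [hdim]; norm_num)
  have h0' : LinearIndependent ℂ ![e0, e1, u, v] := h0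
  refine ⟨e0, e1, h0', fun y => ?_⟩
  have hs := h0'.span_eq_top_of_card_eq_finrank' (by rw [hdim]; simp)
  have hy : y ∈ Submodule.span ℂ (Set.range ![e0, e1, u, v]) := by rw [hs]; trivial
  obtain ⟨c, hc⟩ := (Submodule.mem_span_range_iff_exists_fun ℂ).1 hy
  refine ⟨c 0, c 1, c 2, c 3, ?_⟩
  rw [← hc, Fin.sum_univ_four]
  rfl

end Abs

end N2a

open N2a in
/-- **(N2a)** a line of a smooth cubic surface meets another line -/
theorem n2a {E : Type} [AddCommGroup E] [Module ℂ E] [FiniteDimensional ℂ E]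
    (hdim : Module.finrank ℂ E = 4) (T : E →ₗ[ℂ] E →ₗ[ℂ] E →ₗ[ℂ] ℂ)
    (h12 : ∀ x y z, T x y z = T y x z) (h23 : ∀ x y z, T x y z = T x z y)
    (hsm : ∀ x, (∀ y, T x x y = 0) → x = 0) (u v : E) (huv : LinearIndependent ℂ ![u, v])
    (h0 : ∀ s t : ℂ, T (s • u + t • v) (s • u + t • v) (s • u + t • v) = 0) :
    ∃ f0 f1 f2 f3 : E, LinearIndependent ℂ ![f0, f1, f2, f3] ∧
      Submodule.span ℂ {f0, f3} = Submodule.span ℂ {u, v} ∧
      (∀ s t : ℂ, T (s • f0 + t • f3) (s • f0 + t • f3) (s • f0 + t • f3) = 0) ∧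
      (∀ s t : ℂ, T (s • f2 + t • f3) (s • f2 + t • f3) (s • f2 + t • f3) = 0) := by
  obtain ⟨e0, e1, hli, hspan⟩ := exists_basis hdim huv
  obtain ⟨h1, h2, h3, h4⟩ := line_vals h12 h23 h0
  obtain ⟨s, t, hst, hq⟩ := quintic (T e0 u u) (T e1 u u) (T e0 u v) (T e1 u v) (T e0 v v)
    (T e1 v v) (T e0 e0 u) (T e0 e1 u) (T e1 e1 u) (T e0 e0 v) (T e0 e1 v) (T e1 e1 v)
    (T e0 e0 e0) (T e0 e0 e1) (T e0 e1 e1) (T e1 e1 e1)
  set e : E := s • e0 + t • e1 with he
  have hd := hq (T e u u) (T e u v) (T e v v) (T e e u) (T e e v) (T e e e)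
    (by simp only [he, map_add, map_smul, LinearMap.add_apply, LinearMap.smul_apply,
          smul_eq_mul]; ring)
    (by simp only [he, map_add, map_smul, LinearMap.add_apply, LinearMap.smul_apply,
          smul_eq_mul]; ring)
    (by simp only [he, map_add, map_smul, LinearMap.add_apply, LinearMap.smul_apply,
          smul_eq_mul]; ring)
    (by simp only [he, map_add, map_smul, LinearMap.add_apply, LinearMap.smul_apply,
          smul_eq_mul]
        rw [h12 e1 e0 u]; ring)
    (by simp only [he, map_add, map_smul, LinearMap.add_apply, LinearMap.smul_apply,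
          smul_eq_mul]
        rw [h12 e1 e0 v]; ring)
    (by simp only [he, map_add, map_smul, LinearMap.add_apply, LinearMap.smul_apply,
          smul_eq_mul]
        rw [h23 e0 e1 e0, s13 h12 h23 e1 e0 e0, h12 e1 e0 e1, s13 h12 h23 e1 e1 e0]; ring)
  have hnz : ¬ (T e u u = 0 ∧ T e u v = 0 ∧ T e v v = 0) := fun h =>
    nz h12 h23 hsm hspan huv h1 h2 h3 h4 hst h.1 h.2.1 h.2.2
  obtain ⟨a, b, c, d, r, hab, hr, q1, q2, q3⟩ := conic hd hnz
  -- the two vectors of the new line
  have hline : ∀ x y : ℂ, T (x • (r • e + c • u + d • v) + y • (a • u + b • v))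
      (x • (r • e + c • u + d • v) + y • (a • u + b • v))
      (x • (r • e + c • u + d • v) + y • (a • u + b • v)) = 0 := by
    intro x y
    have e1' : x • (r • e + c • u + d • v) + y • (a • u + b • v) =
        (x * r) • e + (x * c + y * a) • u + (x * d + y * b) • v := by
      simp only [smul_add, add_smul, mul_smul]
      abel
    rw [e1', cube3 h12 h23, h1, h2, h3, h4]
    linear_combination (3 * x * r * y ^ 2) * q1 + (3 * x * r * x * y) * q2 +
      (3 * x * r * x ^ 2) * q3
  have hk : ∀ g : Fin 4 → ℂ, g 0 • e0 + g 1 • e1 + g 2 • u + g 3 • v = 0 → ∀ i, g i = 0 := by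
    intro g hg
    refine Fintype.linearIndependent_iff.1 hli g ?_
    rw [Fin.sum_univ_four]
    exact hg
  have hk' : ∀ x0 x1 x2 x3 : ℂ, x0 • e0 + x1 • e1 + x2 • u + x3 • v = 0 →
      x0 = 0 ∧ x1 = 0 ∧ x2 = 0 ∧ x3 = 0 := by
    intro x0 x1 x2 x3 hx
    have h := hk ![x0, x1, x2, x3] hx
    exact ⟨h 0, h 1, h 2, h 3⟩
  -- the vector f0
  have hf0 : ∃ a' b' : ℂ, a * b' - b * a' ≠ 0 := by
    by_cases ha : a = 0
    · exact ⟨1, 0, by
        have hb : b ≠ 0 := fun hb => hab ⟨ha, hb⟩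
        simpa using hb⟩
    · exact ⟨0, 1, by simpa using ha⟩
  obtain ⟨a', b', hdet⟩ := hf0
  -- the vector f1
  have hf1 : ∃ s' t' : ℂ, s * t' - t * s' ≠ 0 := by
    by_cases hs : s = 0
    · exact ⟨1, 0, by
        have ht : t ≠ 0 := fun ht => hst ⟨hs, ht⟩
        simpa using ht⟩
    · exact ⟨0, 1, by simpa using hs⟩
  obtain ⟨s', t', hdet'⟩ := hf1
  refine ⟨a' • u + b' • v, s' • e0 + t' • e1, r • e + c • u + d • v, a • u + b • v, ?_, ?_, ?_,
    hline⟩
  · rw [Fintype.linearIndependent_iff]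
    intro g hg
    rw [Fin.sum_univ_four] at hg
    have hg' : (g 1 * s' + g 2 * r * s) • e0 + (g 1 * t' + g 2 * r * t) • e1 +
        (g 0 * a' + g 2 * c + g 3 * a) • u + (g 0 * b' + g 2 * d + g 3 * b) • v = 0 := by
      rw [← hg]
      show _ = g 0 • (a' • u + b' • v) + g 1 • (s' • e0 + t' • e1) +
        g 2 • (r • e + c • u + d • v) + g 3 • (a • u + b • v)
      rw [he]
      simp only [smul_add, add_smul, mul_smul]
      abel
    obtain ⟨z0, z1, z2, z3⟩ := hk' _ _ _ _ hg'
    have y1 : g 1 = 0 := by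
      have : g 1 * (s * t' - t * s') = 0 := by linear_combination s * z1 - t * z0
      exact (mul_eq_zero.1 this).resolve_right hdet'
    have y2 : g 2 = 0 := by
      have : g 2 * r * (s * t' - t * s') = 0 := by
        linear_combination t' * z0 - s' * z1
      have h' := (mul_eq_zero.1 this).resolve_right hdet'
      exact (mul_eq_zero.1 h').resolve_right hr
    rw [y2] at z2 z3
    have y0 : g 0 = 0 := by
      have : g 0 * (a * b' - b * a') = 0 := by linear_combination a * z3 - b * z2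
      exact (mul_eq_zero.1 this).resolve_right hdet
    have y3 : g 3 = 0 := by
      have : g 3 * (a * b' - b * a') = 0 := by linear_combination b' * z2 - a' * z3
      exact (mul_eq_zero.1 this).resolve_right hdet
    intro i
    fin_cases i
    · exact y0
    · exact y1
    · exact y2
    · exact y3
  · apply le_antisymm
    · rw [Submodule.span_le]
      rintro x (rfl | rfl)
      · exact Submodule.mem_span_pair.2 ⟨a', b', rfl⟩
      · exact Submodule.mem_span_pair.2 ⟨a, b, rfl⟩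
    · rw [Submodule.span_le]
      rintro x (rfl | rfl)
      · refine Submodule.mem_span_pair.2 ⟨-b / (a * b' - b * a'), b' / (a * b' - b * a'), ?_⟩
        have k1 : -b / (a * b' - b * a') * a' + b' / (a * b' - b * a') * a = 1 := by
          field_simp
          ring
        have k2 : -b / (a * b' - b * a') * b' + b' / (a * b' - b * a') * b = 0 := by
          field_simp
          ring
        rw [smul_add, smul_add, smul_smul, smul_smul, smul_smul, smul_smul, add_add_add_comm,
          ← add_smul, ← add_smul, k1, k2, one_smul, zero_smul, add_zero]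
      · refine Submodule.mem_span_pair.2 ⟨a / (a * b' - b * a'), -a' / (a * b' - b * a'), ?_⟩
        have k1 : a / (a * b' - b * a') * a' + -a' / (a * b' - b * a') * a = 0 := by
          field_simp
          ring
        have k2 : a / (a * b' - b * a') * b' + -a' / (a * b' - b * a') * b = 1 := by
          field_simp
          ring
        rw [smul_add, smul_add, smul_smul, smul_smul, smul_smul, smul_smul, add_add_add_comm,
          ← add_smul, ← add_smul, k1, k2, one_smul, zero_smul, zero_add]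
  · intro x y
    have e1' : x • (a' • u + b' • v) + y • (a • u + b • v) =
        (x * a' + y * a) • u + (x * b' + y * b) • v := by
      simp only [smul_add, add_smul, mul_smul]
      abel
    rw [e1']
    exact h0 _ _

end P287H149
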