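import Mathlib
import Vale.Agent.P287.H468.Fin1

set_option autoImplicit false
set_option linter.all false

/-!
From an Eckardt point to a reflection preserving the cubic form.
-/

namespace P287H468
open MvPolynomial Matrix

/-- the linear form `al` as a coordinate vector -/
theorem lin_eq_dot (f : E6 →ₗ[ℂ] ℂ) (x : E6) :
    f x = ∑ i, f (Pi.single i 1) * x i := by
  conv_lhs => rw [single_sum x]
  rw [map_sum]
  refine Finset.sum_congr rfl fun i _ => ?_
  rw [map_smul, smul_eq_mul, mul_comm]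

/-- the matrix of `x ↦ x - 2 f(x) p` -/
noncomputable def reflM (f : E6 →ₗ[ℂ] ℂ) (p : E6) : Matrix (Fin 6) (Fin 6) ℂ :=
  1 - Matrix.vecMulVec ((2 : ℂ) • p) (fun i => f (Pi.single i 1))

theorem reflM_mulVec (f : E6 →ₗ[ℂ] ℂ) (p x : E6) :
    reflM f p *ᵥ x = x - (2 * f x) • p := by
  rw [reflM, Matrix.sub_mulVec, Matrix.one_mulVec]
  congr 1
  funext i
  rw [Matrix.mulVec, dotProduct]
  simp only [Matrix.vecMulVec_apply, Pi.smul_apply, smul_eq_mul]
  rw [lin_eq_dot f x, Finset.mul_sum, Finset.sum_mul]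
  refine Finset.sum_congr rfl fun j _ => ?_
  ring

theorem reflM_sq {f : E6 →ₗ[ℂ] ℂ} {p : E6} (h : f p = 1) : reflM f p * reflM f p = 1 := by
  apply Matrix.ext_of_mulVec_single
  intro i
  rw [← Matrix.mulVec_mulVec, reflM_mulVec, reflM_mulVec, Matrix.one_mulVec, map_sub, map_smul, h]
  module

theorem reflM_det {f : E6 →ₗ[ℂ] ℂ} {p : E6} (h : f p = 1) : (reflM f p).det = -1 := by
  have e : Matrix.vecMulVec ((2 : ℂ) • p) (fun i => f (Pi.single i 1)) =
      Matrix.replicateCol Unit ((2 : ℂ) • p) * Matrix.replicateRow Unit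
        (fun i => f (Pi.single i 1)) := by
    rw [Matrix.vecMulVec_eq Unit]
  rw [reflM, e, Matrix.det_one_sub_mul_comm]
  rw [Matrix.det_unique]
  simp only [Matrix.sub_apply, Matrix.one_apply_eq, Matrix.mul_apply, Matrix.replicateRow_apply,
    Matrix.replicateCol_apply, Pi.smul_apply, smul_eq_mul]
  have h2 := lin_eq_dot f p
  rw [h] at h2
  have h3 : ∑ x, f (Pi.single x 1) * (2 * p x) = 2 := by
    have : ∑ x, f (Pi.single x 1) * (2 * p x) = 2 * ∑ i, f (Pi.single i 1) * p i := by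
      rw [Finset.mul_sum]
      refine Finset.sum_congr rfl fun j _ => ?_
      ring
    rw [this, ← h2, mul_one]
  rw [h3]
  norm_num

theorem reflM_rank {f : E6 →ₗ[ℂ] ℂ} {p : E6} (hp : p ≠ 0) (h : f p = 1) :
    (reflM f p - 1).rank = 1 := by
  have hr : LinearMap.range ((reflM f p - 1).mulVecLin) = Submodule.span ℂ {p} := by
    ext x
    rw [LinearMap.mem_range, Submodule.mem_span_singleton]
    constructor
    · rintro ⟨y, rfl⟩
      refine ⟨-(2 * f y), ?_⟩
      rw [Matrix.mulVecLin_apply, Matrix.sub_mulVec, Matrix.one_mulVec, reflM_mulVec]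
      module
    · rintro ⟨a, rfl⟩
      refine ⟨(-(a / 2)) • p, ?_⟩
      rw [Matrix.mulVecLin_apply, Matrix.sub_mulVec, Matrix.one_mulVec, reflM_mulVec, map_smul, h]
      module
  rw [Matrix.rank, hr, finrank_span_singleton hp]

/-- an Eckardt point of a smooth cubic form gives a reflection which preserves the form -/
theorem refl_of_eckardt {F : MvPolynomial (Fin 6) ℂ} (hF : F.IsHomogeneous 3)
    (hsm : SmoothForm F) {p : Fin 6 → ℂ} (hp : EckardtPoint F p) :
    ∃ A : Matrix (Fin 6) (Fin 6) ℂ, A * A = 1 ∧ A.det = -1 ∧ (A - 1).rank = 1 ∧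
      (∀ x, eval (A *ᵥ x) F = eval x F) ∧ A *ᵥ p = -p := by
  have hs := symL_of hF
  have hpL := eck_of hF hp
  obtain ⟨w, hw⟩ : ∃ w, T6 (ten F) p p w ≠ 0 := by
    by_contra hcon
    push Not at hcon
    exact hpL.ne (smL_of hF hsm p hcon)
  set w0 : E6 := (T6 (ten F) p p w)⁻¹ • w with hw0
  have hw1 : T6 (ten F) p p w0 = 1 := by
    rw [hw0, map_smul, smul_eq_mul, inv_mul_cancel₀ hw]
  have hal := al_p hs hpL hw1
  refine ⟨reflM (al (T6 (ten F)) p w0) p, reflM_sq hal, reflM_det hal,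
    reflM_rank hpL.ne hal, ?_, ?_⟩
  · intro x
    have hxx := pxy hs hpL hw1 x x
    rw [reflM_mulVec, eval_T6 hF, eval_T6 hF]
    simp only [map_sub, map_smul, LinearMap.sub_apply, LinearMap.smul_apply, smul_eq_mul]
    rw [hs.h23 x x p, hs.h12 x p x, hs.h12 x p p, hs.h23 p x p, hxx, hpL.ppp]
    ring
  · rw [reflM_mulVec, hal]
    module

end P287H468
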